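import Vale.Agent.P076.R2.H64.Cell

/-!
# P076, thin sets of times: row T2 (the rate at time 0)
-/

set_option autoImplicit false

open MeasureTheory Complex Filter Topology Set
open scoped ENNReal NNReal

namespace Vale.Agent.P076.R2.H909.Rate

open Vale.Agent.P076 Vale.Agent.P076.R2.H64

variable {n : ℕ}

theorem norm_exp_mul (x η : E n) (s : ℝ) (z : ℂ) :
    ‖cexp (2 * Real.pi * I * ((inner ℝ x η - s * ‖η‖ ^ 2 : ℝ) : ℂ) - (((0 : ℝ) * ‖η‖ ^ 2 : ℝ) : ℂ)) * z‖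
      = ‖z‖ := by
  rw [norm_mul, Complex.norm_exp]
  have : (2 * Real.pi * I * ((inner ℝ x η - s * ‖η‖ ^ 2 : ℝ) : ℂ) - (((0 : ℝ) * ‖η‖ ^ 2 : ℝ) : ℂ)).re
      = 0 := by
    have e : (2 * Real.pi * I * ((inner ℝ x η - s * ‖η‖ ^ 2 : ℝ) : ℂ) - (((0 : ℝ) * ‖η‖ ^ 2 : ℝ) : ℂ))
        = ((2 * Real.pi * (inner ℝ x η - s * ‖η‖ ^ 2) : ℝ) : ℂ) * I := by
      push_cast; ring
    rw [e, Complex.re_ofReal_mul, Complex.I_re, mul_zero]
  rw [this, Real.exp_zero, one_mul]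

theorem dG_norm (G : E n → ℂ) (η : E n) : ‖dG G η‖ = 2 * Real.pi * ‖η‖ ^ 2 * ‖G η‖ := by
  simp only [dG, norm_mul, norm_neg, Complex.norm_I, mul_one, norm_pow, Complex.norm_real,
    Complex.norm_ofNat, Real.norm_eq_abs, abs_of_pos Real.pi_pos, abs_norm]

theorem mom_int {G : E n → ℂ} (h1 : Integrable G) {b : ℝ} (hb : ∀ η, G η ≠ 0 → ‖η‖ ≤ b) :
    Integrable (fun η => ‖η‖ ^ 2 * ‖G η‖) := by
  refine Integrable.mono' (g := fun η => b ^ 2 * ‖G η‖)
    (h1.norm.const_mul _) ?_ (Eventually.of_forall fun η => ?_)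
  · exact (by fun_prop : Continuous fun η : E n => ‖η‖ ^ 2).aestronglyMeasurable.mul
      h1.norm.aestronglyMeasurable
  · rw [Real.norm_of_nonneg (by positivity)]
    by_cases h0 : G η = 0
    · simp [h0]
    · exact mul_le_mul_of_nonneg_right (pow_le_pow_left₀ (norm_nonneg _) (hb η h0) 2) (norm_nonneg _)

theorem dG_integrable {G : E n → ℂ} (h1 : Integrable G) {b : ℝ} (hb : ∀ η, G η ≠ 0 → ‖η‖ ≤ b) :
    Integrable (dG G) := by
  refine Integrable.mono' (g := fun η => 2 * Real.pi * (‖η‖ ^ 2 * ‖G η‖))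
    ((mom_int h1 hb).const_mul _) ?_ (Eventually.of_forall fun η => ?_)
  · unfold dG
    exact (by fun_prop : Continuous fun η : E n => (-(2 * Real.pi * I * (‖η‖ : ℂ) ^ 2) : ℂ)).aestronglyMeasurable.mul
      h1.aestronglyMeasurable
  · rw [dG_norm, mul_assoc (2 * Real.pi)]

theorem meas_int {F : E n → ℂ} (hF : AEStronglyMeasurable F volume) (x : E n) (s : ℝ) :
    AEStronglyMeasurable (fun η : E n =>
      cexp (2 * Real.pi * I * ((inner ℝ x η - s * ‖η‖ ^ 2 : ℝ) : ℂ) - (((0 : ℝ) * ‖η‖ ^ 2 : ℝ) : ℂ)) * F η)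
      volume := by
  refine AEStronglyMeasurable.mul ?_ hF
  apply Continuous.aestronglyMeasurable
  fun_prop

theorem evo_deriv {G : E n → ℂ} (h1 : Integrable G) {b : ℝ} (hb : ∀ η, G η ≠ 0 → ‖η‖ ≤ b)
    (x : E n) (s : ℝ) :
    HasDerivAt (fun s => evo G x s 0) (evo (dG G) x s 0) s := by
  have h2 := dG_integrable h1 hb
  have key := hasDerivAt_integral_of_dominated_loc_of_deriv_le (𝕜 := ℝ) (μ := volume)
    (F := fun (s : ℝ) (η : E n) =>
      cexp (2 * Real.pi * I * ((inner ℝ x η - s * ‖η‖ ^ 2 : ℝ) : ℂ) - (((0 : ℝ) * ‖η‖ ^ 2 : ℝ) : ℂ)) * G η)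
    (F' := fun (s : ℝ) (η : E n) =>
      cexp (2 * Real.pi * I * ((inner ℝ x η - s * ‖η‖ ^ 2 : ℝ) : ℂ) - (((0 : ℝ) * ‖η‖ ^ 2 : ℝ) : ℂ)) * dG G η)
    (x₀ := s) (s := Metric.ball s 1) (bound := fun η => ‖dG G η‖)
    (Metric.ball_mem_nhds s one_pos)
    (Eventually.of_forall fun s => meas_int h1.aestronglyMeasurable x s)
    (by
      refine Integrable.mono h1 (meas_int h1.aestronglyMeasurable x s)
        (Eventually.of_forall fun η => ?_)
      rw [norm_exp_mul])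
    (meas_int h2.aestronglyMeasurable x s)
    (Eventually.of_forall fun η s _ => by rw [norm_exp_mul])
    h2.norm
    (Eventually.of_forall fun η s _ => by
      have e1 : HasDerivAt (fun s : ℝ => (2 * Real.pi * I * ((inner ℝ x η - s * ‖η‖ ^ 2 : ℝ) : ℂ)
          - (((0 : ℝ) * ‖η‖ ^ 2 : ℝ) : ℂ))) (-(2 * Real.pi * I * ‖η‖ ^ 2)) s := by
        have e2 : HasDerivAt (fun s : ℝ => (inner ℝ x η - s * ‖η‖ ^ 2 : ℝ)) (-(‖η‖ ^ 2)) s := by
          have := ((hasDerivAt_id s).mul_const (‖η‖ ^ 2)).const_sub (inner ℝ x η)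
          simpa using this
        have e3 := ((e2.ofReal_comp).const_mul (2 * Real.pi * I)).sub_const
          ((((0 : ℝ) * ‖η‖ ^ 2 : ℝ) : ℂ))
        refine e3.congr_deriv ?_
        push_cast
        ring
      have e4 := (e1.cexp).mul_const (G η)
      refine e4.congr_deriv ?_
      unfold dG
      ring)
  exact key.2

/-- `(2^k)^(-d) = (2^(-d))^k` -/
theorem pow_rpow (d : ℝ) (k : ℕ) : ((2 : ℝ) ^ k) ^ (-d) = ((2 : ℝ) ^ (-d)) ^ k := by
  rw [← Real.rpow_natCast, ← Real.rpow_natCast, ← Real.rpow_mul (by norm_num),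
    ← Real.rpow_mul (by norm_num), mul_comm]

/-- `(2^(-d))^k = (4^k)^(-(d/2))` -/
theorem pow_rpow4 (d : ℝ) (k : ℕ) : ((2 : ℝ) ^ (-d)) ^ k = ((4 : ℝ) ^ k) ^ (-(d / 2)) := by
  have h4 : (4 : ℝ) = (2 : ℝ) ^ (2 : ℝ) := by norm_num
  rw [h4, ← Real.rpow_natCast, ← Real.rpow_natCast, ← Real.rpow_mul (by norm_num),
    ← Real.rpow_mul (by norm_num), ← Real.rpow_mul (by norm_num)]
  congr 1
  ring

theorem rate_end {P : ℕ → E n → ℂ} {δ : ℕ → ℝ} (hP : Pieces P δ)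
    (hPc : ∀ k, ∃ b : ℝ, ∀ η, P k η ≠ 0 → ‖η‖ ≤ b)
    (x : E n) {Z : Set ℝ} (hZ : Z ⊆ Ici 0) {d : ℝ} (hd0 : 0 < d) (hd2 : d < 2) {k0 : ℕ}
    (hb0 : ∀ k ≥ k0, ‖evo (P (k + 1)) x 0 0‖ ≤ ((2 : ℝ) ^ k) ^ (-d))
    (hb : ∀ k ≥ k0, ∀ s ∈ Z, ‖evo (P (k + 1)) x s 0‖ ≤ ((2 : ℝ) ^ k) ^ (-d))
    (hc : ∀ k ≥ k0, ∀ s ∈ Icc (0 : ℝ) (hh (2 ^ k)),
      ‖evo (dG (P (k + 1))) x s 0‖ ≤ 4 ^ k * ((2 : ℝ) ^ k) ^ (-d)) :
    ∃ C : ℝ, ∀ s ∈ Z, s ≤ 2 * Real.pi →
      ‖(∑' k, evo (P k) x s 0) - ∑' k, evo (P k) x 0 0‖ ≤ C * s ^ (d / 2) := by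
  set B : ℝ := (2 : ℝ) ^ (-d) with hB
  have hB0 : 0 < B := Real.rpow_pos_of_pos (by norm_num) _
  have hB1 : B < 1 := Real.rpow_lt_one_of_one_lt_of_neg (by norm_num) (by linarith)
  have hA1 : 1 < 4 * B := by
    have : (2 : ℝ) ^ (-(2 : ℝ)) < B :=
      Real.rpow_lt_rpow_of_exponent_lt (by norm_num) (by linarith)
    have h2 : (2 : ℝ) ^ (-(2 : ℝ)) = 1 / 4 := by
      rw [Real.rpow_neg (by norm_num)]; norm_num
    rw [h2] at this
    linarith
  simp only [pow_rpow, ← hB] at hb0 hb hc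
  have hpi := Real.pi_gt_three
  set κ : ℝ := (2 * Real.pi) ^ (1 - d / 2) with hκ
  have hκ0 : 0 < κ := Real.rpow_pos_of_pos (by positivity) _
  have hmi : ∀ k, Integrable (fun η => ‖η‖ ^ 2 * ‖P k η‖) := fun k => by
    obtain ⟨b, hb⟩ := hPc k
    exact mom_int (hP.int k) hb
  have hm0 : ∀ k, 0 ≤ mom (P k) := fun k => by
    unfold mom
    have : 0 ≤ ∫ η, ‖η‖ ^ 2 * ‖P k η‖ := integral_nonneg fun η => by positivity
    positivity
  -- summability
  have hsum : ∀ s, (∀ k ≥ k0, ‖evo (P (k + 1)) x s 0‖ ≤ B ^ k) →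
      Summable fun k => evo (P k) x s 0 := by
    intro s hs
    rw [← summable_nat_add_iff (k0 + 1)]
    refine Summable.of_norm_bounded (g := fun k => B ^ k)
      (summable_geometric_of_lt_one hB0.le hB1) fun k => ?_
    rw [← add_assoc]
    refine (hs (k + k0) (by omega)).trans ?_
    exact pow_le_pow_of_le_one hB0.le hB1.le (by omega)
  have hs0 := hsum 0 hb0
  refine ⟨(∑ k ∈ Finset.range (k0 + 1), mom (P k)) * κ + (4 * B) ^ 2 / (4 * B - 1) * κ
    + 2 / (1 - B), fun s hsZ hs2 => ?_⟩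
  rcases (show (0 : ℝ) ≤ s from hZ hsZ).eq_or_lt with h0 | h0
  · rw [← h0, sub_self, norm_zero, Real.zero_rpow (by positivity), mul_zero]
  have hs1 := hsum s fun k hk => hb k hk s hsZ
  rw [← hs1.tsum_sub hs0]
  obtain ⟨J, hJ1, hJ2⟩ := exists_nat_pow_near (x := 2 * Real.pi / s) (y := (4 : ℝ))
    (by rw [le_div_iff₀ h0]; linarith) (by norm_num)
  set τ : ℝ := s ^ (d / 2) with hτ
  have hτ0 : 0 < τ := Real.rpow_pos_of_pos h0 _
  have hsκ : s * (2 * Real.pi / s) ^ (1 - d / 2) = κ * τ := by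
    rw [Real.div_rpow (by positivity) h0.le, ← hκ, mul_div_assoc', mul_comm s κ, mul_div_assoc]
    congr 1
    rw [hτ, div_eq_iff (Real.rpow_pos_of_pos h0 _).ne', ← Real.rpow_add h0]
    norm_num
  have hAJ : s * (4 * B) ^ J ≤ κ * τ := by
    rw [← hsκ]
    refine mul_le_mul_of_nonneg_left ?_ h0.le
    rw [mul_pow, hB, pow_rpow4]
    have h4 : (0 : ℝ) < 4 ^ J := by positivity
    have : (4 : ℝ) ^ J * ((4 : ℝ) ^ J) ^ (-(d / 2)) = ((4 : ℝ) ^ J) ^ (1 - d / 2) := by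
      rw [sub_eq_add_neg, Real.rpow_add h4, Real.rpow_one]
    rw [this]
    exact Real.rpow_le_rpow h4.le hJ1 (by linarith)
  have hsκ2 : s ≤ κ * τ := by
    rw [← hsκ]
    have : (1 : ℝ) ≤ (2 * Real.pi / s) ^ (1 - d / 2) :=
      Real.one_le_rpow (by rw [le_div_iff₀ h0]; linarith) (by linarith)
    nlinarith
  have hBJ : B ^ (J + 1) ≤ τ := by
    rw [hB, pow_rpow4]
    have h5 : (0 : ℝ) < 2 * Real.pi / s := by positivity
    refine (Real.rpow_le_rpow_of_nonpos h5 hJ2.le (by linarith)).trans ?_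
    rw [Real.rpow_neg h5.le, ← Real.inv_rpow h5.le, inv_div]
    refine Real.rpow_le_rpow (by positivity) ?_ (by linarith)
    rw [div_le_iff₀ (by positivity)]
    nlinarith
  -- the two bounds
  have hlow : ∀ k, ‖evo (P k) x s 0 - evo (P k) x 0 0‖ ≤ mom (P k) * κ * τ := fun k => by
    refine (evo_sub_le (hP.int k) (hmi k) x h0.le).trans ?_
    calc s * mom (P k) ≤ κ * τ * mom (P k) := mul_le_mul_of_nonneg_right hsκ2 (hm0 k)
      _ = _ := by ring
  have hhigh : ∀ j ≥ k0, ‖evo (P (j + 1)) x s 0 - evo (P (j + 1)) x 0 0‖ ≤ 2 * B ^ j := fun j hj => by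
    refine (norm_sub_le _ _).trans ?_
    linarith [hb j hj s hsZ, hb0 j hj]
  have hmid : ∀ j ≥ k0, j ≤ J →
      ‖evo (P (j + 1)) x s 0 - evo (P (j + 1)) x 0 0‖ ≤ s * (4 * B) ^ j := fun j hj hjJ => by
    have hsj : s ≤ hh (2 ^ j) := by
      unfold hh
      have e : ((2 : ℝ) ^ j) ^ 2 = 4 ^ j := by rw [← pow_mul, mul_comm, pow_mul]; norm_num
      rw [e, le_div_iff₀ (by positivity)]
      have : (4 : ℝ) ^ j ≤ 2 * Real.pi / s :=
        (pow_le_pow_right₀ (by norm_num) hjJ).trans hJ1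
      rw [le_div_iff₀ h0] at this
      linarith
    obtain ⟨b, hb'⟩ := hPc (j + 1)
    have := norm_image_sub_le_of_norm_deriv_le_segment' (f := fun σ => evo (P (j + 1)) x σ 0)
      (f' := fun σ => evo (dG (P (j + 1))) x σ 0) (a := 0) (b := s) (C := (4 * B) ^ j)
      (fun σ _ => (evo_deriv (hP.int (j + 1)) hb' x σ).hasDerivWithinAt)
      (fun σ hσ => by
        rw [mul_pow]
        exact hc j hj σ ⟨hσ.1, hσ.2.le.trans hsj⟩) s ⟨h0.le, le_rfl⟩
    simp only [sub_zero] at this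
    rw [mul_comm s]
    exact this
  -- the majorant
  set g : ℕ → ℝ := fun k => if k < J + 2 then s * (4 * B) ^ k else 2 / B * B ^ k with hg
  have hg0 : ∀ k, 0 ≤ g k := fun k => by
    simp only [hg]
    split_ifs <;> positivity
  have hgs : HasSum g (2 * B ^ (J + 1) * (1 - B)⁻¹ + ∑ k ∈ Finset.range (J + 2), g k) := by
    rw [← hasSum_nat_add_iff (J + 2)]
    have h6 := (hasSum_geometric_of_lt_one hB0.le hB1).mul_left (2 * B ^ (J + 1))
    have h6' : (fun k => g (k + (J + 2))) = fun k => 2 * B ^ (J + 1) * B ^ k := by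
      funext k
      have e0 : g (k + (J + 2)) = 2 / B * B ^ (k + (J + 2)) := if_neg (by omega)
      rw [e0]
      have : k + (J + 2) = k + (J + 1) + 1 := by ring
      rw [this, pow_succ, pow_add]
      field_simp
    rw [h6']
    exact h6
  have hms : HasSum (fun k => if k < k0 + 1 then mom (P k) * κ * τ else 0)
      (∑ k ∈ Finset.range (k0 + 1), mom (P k) * κ * τ) := by
    have h7 : HasSum (fun k => if k < k0 + 1 then mom (P k) * κ * τ else 0)
        (∑ k ∈ Finset.range (k0 + 1), if k < k0 + 1 then mom (P k) * κ * τ else 0) :=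
      hasSum_sum_of_ne_finset_zero fun k hk => if_neg fun h => hk (Finset.mem_range.2 h)
    have h8 : (∑ k ∈ Finset.range (k0 + 1), if k < k0 + 1 then mom (P k) * κ * τ else 0)
        = ∑ k ∈ Finset.range (k0 + 1), mom (P k) * κ * τ :=
      Finset.sum_congr rfl fun k hk => if_pos (Finset.mem_range.1 hk)
    rwa [h8] at h7
  have hle : ∀ k, ‖evo (P k) x s 0 - evo (P k) x 0 0‖ ≤
      (if k < k0 + 1 then mom (P k) * κ * τ else 0) + g k := fun k => by
    by_cases hk : k < k0 + 1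
    · rw [if_pos hk]
      linarith [hlow k, hg0 k]
    · rw [if_neg hk, zero_add]
      obtain ⟨j, rfl⟩ : ∃ j, k = j + 1 := ⟨k - 1, by omega⟩
      simp only [hg]
      split_ifs with h8
      · refine (hmid j (by omega) (by omega)).trans ?_
        exact mul_le_mul_of_nonneg_left (pow_le_pow_right₀ hA1.le (by omega)) h0.le
      · refine (hhigh j (by omega)).trans (le_of_eq ?_)
        rw [pow_succ]
        field_simp
  refine (tsum_of_norm_bounded (hms.add hgs) hle).trans ?_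
  have hgr : ∑ k ∈ Finset.range (J + 2), g k ≤ (4 * B) ^ 2 / (4 * B - 1) * κ * τ := by
    have h9 : ∑ k ∈ Finset.range (J + 2), g k = s * ∑ k ∈ Finset.range (J + 2), (4 * B) ^ k := by
      rw [Finset.mul_sum]
      refine Finset.sum_congr rfl fun k hk => ?_
      simp only [hg]
      rw [if_pos (Finset.mem_range.1 hk)]
    rw [h9, geom_sum_eq hA1.ne']
    have hA2 : 0 < 4 * B - 1 := by linarith
    rw [mul_div_assoc', div_le_iff₀ hA2]
    calc s * ((4 * B) ^ (J + 2) - 1) ≤ s * (4 * B) ^ (J + 2) := by nlinarith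
      _ = (4 * B) ^ 2 * (s * (4 * B) ^ J) := by rw [pow_add]; ring
      _ ≤ (4 * B) ^ 2 * (κ * τ) := mul_le_mul_of_nonneg_left hAJ (by positivity)
      _ = (4 * B) ^ 2 / (4 * B - 1) * κ * τ * (4 * B - 1) := by field_simp
  have hB2 : 0 < 1 - B := by linarith
  have h10 : 2 * B ^ (J + 1) * (1 - B)⁻¹ ≤ 2 / (1 - B) * τ := by
    rw [div_eq_mul_inv]
    have := inv_pos.2 hB2
    nlinarith [mul_le_mul_of_nonneg_right hBJ this.le]
  have h11 : ∑ k ∈ Finset.range (k0 + 1), mom (P k) * κ * τ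
      = (∑ k ∈ Finset.range (k0 + 1), mom (P k)) * κ * τ := by
    rw [Finset.sum_mul, Finset.sum_mul]
  rw [h11]
  calc _ ≤ (∑ k ∈ Finset.range (k0 + 1), mom (P k)) * κ * τ +
        (2 / (1 - B) * τ + (4 * B) ^ 2 / (4 * B - 1) * κ * τ) := by gcongr
    _ = _ := by ring

end Vale.Agent.P076.R2.H909.Rate
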