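import Vale.Agent.P076.R2.H64.Defs

/-!
# P076, thin sets of times: row S (Sobolev in time)
-/

set_option autoImplicit false

open MeasureTheory Complex Filter Topology Set
open scoped ENNReal NNReal

namespace Vale.Agent.P076.R2.H909

open Vale.Agent.P076 Vale.Agent.P076.R2.H64

variable {n : ℕ}

theorem shell_integrable {R : ℝ} {G : E n → ℂ} (hG : Shell R G) : Integrable G := by
  have hs : Function.support G ⊆ Metric.closedBall (0 : E n) (2 * R) := by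
    intro η hη
    simpa [Metric.mem_closedBall, dist_zero_right] using (hG.supp η hη).2
  have h2 : MemLp G 2 (volume : Measure (E n)) := by
    refine ⟨hG.meas.aestronglyMeasurable, ?_⟩
    rw [eLpNorm_lt_top_iff_lintegral_rpow_enorm_lt_top (by norm_num) (by norm_num)]
    simp only [ENNReal.toReal_ofNat, ENNReal.rpow_ofNat]
    exact lt_of_le_of_ne le_top hG.l2
  rw [← integrableOn_iff_integrable_of_support_subset hs]
  have hfin : IsFiniteMeasure ((volume : Measure (E n)).restrict (Metric.closedBall 0 (2 * R))) :=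
    ⟨by rw [Measure.restrict_apply_univ]; exact measure_closedBall_lt_top⟩
  exact (h2.restrict _).integrable (by norm_num)

/-- the integrand is bounded by the data -/
theorem norm_exp_mul (x η : E n) (s : ℝ) (z : ℂ) :
    ‖cexp (2 * Real.pi * I * ((inner ℝ x η - s * ‖η‖ ^ 2 : ℝ) : ℂ) - (((0 : ℝ) * ‖η‖ ^ 2 : ℝ) : ℂ)) * z‖
      = ‖z‖ := by
  rw [norm_mul, Complex.norm_exp]
  have : (2 * Real.pi * I * ((inner ℝ x η - s * ‖η‖ ^ 2 : ℝ) : ℂ) - (((0 : ℝ) * ‖η‖ ^ 2 : ℝ) : ℂ)).re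
      = 0 := by
    have e : (2 * Real.pi * I * ((inner ℝ x η - s * ‖η‖ ^ 2 : ℝ) : ℂ) - (((0 : ℝ) * ‖η‖ ^ 2 : ℝ) : ℂ))
        = ((2 * Real.pi * (inner ℝ x η - s * ‖η‖ ^ 2) : ℝ) : ℂ) * I := by
      push_cast; ring
    rw [e, Complex.re_ofReal_mul, Complex.I_re, mul_zero]
  rw [this, Real.exp_zero, one_mul]

theorem dG_integrable {R : ℝ} {G : E n → ℂ} (hG : Shell R G) : Integrable (dG G) := by
  have h1 := shell_integrable hG
  have hm : Measurable (dG G) := by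
    unfold dG
    have := hG.meas
    fun_prop
  refine Integrable.mono' (g := fun η => (2 * Real.pi * (2 * R) ^ 2) * ‖G η‖)
    (h1.norm.const_mul _) hm.aestronglyMeasurable (Eventually.of_forall fun η => ?_)
  by_cases h0 : G η = 0
  · simp [dG, h0]
  · have h2 := (hG.supp η h0).2
    have h3 : ‖η‖ ^ 2 ≤ (2 * R) ^ 2 := pow_le_pow_left₀ (norm_nonneg _) h2 2
    have h4 : ‖dG G η‖ = 2 * Real.pi * ‖η‖ ^ 2 * ‖G η‖ := by
      simp only [dG, norm_mul, norm_neg, Complex.norm_I, mul_one, norm_pow, Complex.norm_real,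
        Complex.norm_ofNat, Real.norm_eq_abs, abs_of_pos Real.pi_pos, abs_norm]
    rw [h4]
    have h5 : 0 ≤ ‖G η‖ := norm_nonneg _
    have h6 : 2 * Real.pi * ‖η‖ ^ 2 ≤ 2 * Real.pi * (2 * R) ^ 2 :=
      mul_le_mul_of_nonneg_left h3 (by positivity)
    exact mul_le_mul_of_nonneg_right h6 h5

theorem meas_int {F : E n → ℂ} (hF : AEStronglyMeasurable F volume) (x : E n) (s : ℝ) :
    AEStronglyMeasurable (fun η : E n =>
      cexp (2 * Real.pi * I * ((inner ℝ x η - s * ‖η‖ ^ 2 : ℝ) : ℂ) - (((0 : ℝ) * ‖η‖ ^ 2 : ℝ) : ℂ)) * F η)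
      volume := by
  refine AEStronglyMeasurable.mul ?_ hF
  apply Continuous.aestronglyMeasurable
  fun_prop

theorem evo_deriv {R : ℝ} {G : E n → ℂ} (hG : Shell R G) (x : E n) (s : ℝ) :
    HasDerivAt (fun s => evo G x s 0) (evo (dG G) x s 0) s := by
  have h1 := shell_integrable hG
  have h2 := dG_integrable hG
  have key := hasDerivAt_integral_of_dominated_loc_of_deriv_le (𝕜 := ℝ) (μ := volume)
    (F := fun (s : ℝ) (η : E n) =>
      cexp (2 * Real.pi * I * ((inner ℝ x η - s * ‖η‖ ^ 2 : ℝ) : ℂ) - (((0 : ℝ) * ‖η‖ ^ 2 : ℝ) : ℂ)) * G η)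
    (F' := fun (s : ℝ) (η : E n) =>
      cexp (2 * Real.pi * I * ((inner ℝ x η - s * ‖η‖ ^ 2 : ℝ) : ℂ) - (((0 : ℝ) * ‖η‖ ^ 2 : ℝ) : ℂ)) * dG G η)
    (x₀ := s) (s := Metric.ball s 1) (bound := fun η => ‖dG G η‖)
    (Metric.ball_mem_nhds s one_pos)
    (Eventually.of_forall fun s => meas_int h1.aestronglyMeasurable x s)
    (by
      refine Integrable.mono h1 (meas_int h1.aestronglyMeasurable x s)
        (Eventually.of_forall fun η => ?_)
      rw [norm_exp_mul])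
    (meas_int h2.aestronglyMeasurable x s)
    (Eventually.of_forall fun η s _ => by rw [norm_exp_mul])
    h2.norm
    (Eventually.of_forall fun η s _ => by
      have e1 : HasDerivAt (fun s : ℝ => (2 * Real.pi * I * ((inner ℝ x η - s * ‖η‖ ^ 2 : ℝ) : ℂ)
          - (((0 : ℝ) * ‖η‖ ^ 2 : ℝ) : ℂ))) (-(2 * Real.pi * I * ‖η‖ ^ 2)) s := by
        have e2 : HasDerivAt (fun s : ℝ => (inner ℝ x η - s * ‖η‖ ^ 2 : ℝ)) (-(‖η‖ ^ 2)) s := by
          have := ((hasDerivAt_id s).mul_const (‖η‖ ^ 2)).const_sub (inner ℝ x η)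
          simpa using this
        have e3 := ((e2.ofReal_comp).const_mul (2 * Real.pi * I)).sub_const
          ((((0 : ℝ) * ‖η‖ ^ 2 : ℝ) : ℂ))
        refine e3.congr_deriv ?_
        push_cast
        ring
      have e4 := (e1.cexp).mul_const (G η)
      refine e4.congr_deriv ?_
      unfold dG
      ring)
  exact key.2

theorem evo_cont {R : ℝ} {G : E n → ℂ} (hG : Shell R G) (x : E n) :
    Continuous (fun s => evo (dG G) x s 0) := by
  have h2 := dG_integrable hG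
  unfold evo
  refine continuous_of_dominated (bound := fun η => ‖dG G η‖)
    (fun s => meas_int h2.aestronglyMeasurable x s)
    (fun s => Eventually.of_forall fun η => by rw [norm_exp_mul]) h2.norm
    (Eventually.of_forall fun η => ?_)
  fun_prop

theorem two_sq (a b : ℝ≥0∞) : (a + b) ^ 2 ≤ 2 * a ^ 2 + 2 * b ^ 2 := by
  rcases eq_or_ne a ⊤ with rfl | ha
  · simp
  rcases eq_or_ne b ⊤ with rfl | hb
  · simp
  lift a to ℝ≥0 using ha
  lift b to ℝ≥0 using hb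
  norm_cast
  rw [← NNReal.coe_le_coe]
  push_cast
  nlinarith [sq_nonneg ((a : ℝ) - b)]

theorem cs_sq (μ : Measure ℝ) {f : ℝ → ℝ≥0∞} (hf : AEMeasurable f μ) :
    (∫⁻ σ, f σ ∂μ) ^ 2 ≤ μ univ * ∫⁻ σ, f σ ^ 2 ∂μ := by
  have h := ENNReal.lintegral_mul_le_Lp_mul_Lq μ (p := 2) (q := 2)
    Real.HolderConjugate.two_two hf (aemeasurable_const (b := (1 : ℝ≥0∞)))
  simp only [Pi.mul_apply, mul_one, lintegral_const, ENNReal.rpow_ofNat, one_pow, one_mul] at h
  calc (∫⁻ σ, f σ ∂μ) ^ 2 ≤ ((∫⁻ σ, f σ ^ 2 ∂μ) ^ ((1 : ℝ) / 2) * (μ univ) ^ ((1 : ℝ) / 2)) ^ 2 := by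
        gcongr
    _ = μ univ * ∫⁻ σ, f σ ^ 2 ∂μ := by
        rw [mul_pow, ← ENNReal.rpow_natCast, ← ENNReal.rpow_natCast, ← ENNReal.rpow_mul,
          ← ENNReal.rpow_mul]
        norm_num
        rw [mul_comm]

theorem sob {R : ℝ} {G : E n → ℂ} (hG : Shell R G) (x : E n) {b h : ℝ} (h0 : 0 < h) {s : ℝ}
    (hs : s ∈ Icc b (b + h)) :
    ‖evo G x s 0‖ₑ ^ 2 ≤ 2 * (ENNReal.ofReal h)⁻¹ * (∫⁻ σ in Icc b (b + h), ‖evo G x σ 0‖ₑ ^ 2) +
      2 * ENNReal.ofReal h * ∫⁻ σ in Icc b (b + h), ‖evo (dG G) x σ 0‖ₑ ^ 2 := by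
  set g : ℝ → ℂ := fun s => evo G x s 0 with hg
  set g' : ℝ → ℂ := fun s => evo (dG G) x s 0 with hg'
  have hd : ∀ s, HasDerivAt g (g' s) s := fun s => evo_deriv hG x s
  have hc' : Continuous g' := evo_cont hG x
  have hc : Continuous g := continuous_iff_continuousAt.2 fun s => (hd s).continuousAt
  set K : ℝ≥0∞ := ∫⁻ σ in Icc b (b + h), ‖g' σ‖ₑ with hK
  have hvol : volume (Icc b (b + h)) = ENNReal.ofReal h := by
    rw [Real.volume_Icc]; congr 1; ring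
  have hK2 : K ^ 2 ≤ ENNReal.ofReal h * ∫⁻ σ in Icc b (b + h), ‖g' σ‖ₑ ^ 2 := by
    have := cs_sq (volume.restrict (Icc b (b + h))) (f := fun σ => ‖g' σ‖ₑ)
      (hc'.enorm.measurable.aemeasurable)
    rwa [Measure.restrict_apply_univ, hvol] at this
  have h1 : ∀ t ∈ Icc b (b + h), ‖g s‖ₑ ≤ ‖g t‖ₑ + K := by
    intro t ht
    have e1 : ∫ σ in t..s, g' σ = g s - g t :=
      intervalIntegral.integral_eq_sub_of_hasDerivAt (fun σ _ => hd σ)
        (hc'.intervalIntegrable _ _)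
    have e2 : ‖∫ σ in t..s, g' σ‖ₑ ≤ K := by
      rw [intervalIntegral.intervalIntegral_eq_integral_uIoc]
      refine le_trans ?_ (le_trans (enorm_integral_le_lintegral_enorm (μ := volume.restrict (Set.uIoc t s)) g') ?_)
      · split_ifs <;> simp
      · refine lintegral_mono_set ?_
        intro σ hσ
        rcases hσ with ⟨h3, h4⟩
        rw [mem_Icc] at ht hs ⊢
        constructor
        · exact le_trans (le_min ht.1 hs.1) h3.le
        · exact le_trans h4 (max_le ht.2 hs.2)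
    calc ‖g s‖ₑ = ‖g t + (g s - g t)‖ₑ := by congr 1; ring
      _ ≤ ‖g t‖ₑ + ‖g s - g t‖ₑ := enorm_add_le _ _
      _ ≤ ‖g t‖ₑ + K := by
          rw [← e1]; exact add_le_add_right e2 _
  have h2 : ENNReal.ofReal h * ‖g s‖ₑ ^ 2 ≤
      2 * (∫⁻ σ in Icc b (b + h), ‖g σ‖ₑ ^ 2) + ENNReal.ofReal h * (2 * K ^ 2) := by
    have e1 : ∫⁻ _ in Icc b (b + h), ‖g s‖ₑ ^ 2 ≤
        ∫⁻ t in Icc b (b + h), (2 * ‖g t‖ₑ ^ 2 + 2 * K ^ 2) := by
      refine setLIntegral_mono (by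
        have := hc.enorm.measurable
        fun_prop) ?_
      intro t ht
      exact le_trans (pow_le_pow_left₀ bot_le (h1 t ht) 2) (two_sq _ _)
    rw [setLIntegral_const, hvol] at e1
    rw [lintegral_add_right _ measurable_const, setLIntegral_const, hvol,
      lintegral_const_mul _ (by have := hc.enorm.measurable; fun_prop)] at e1
    calc ENNReal.ofReal h * ‖g s‖ₑ ^ 2 = ‖g s‖ₑ ^ 2 * ENNReal.ofReal h := mul_comm _ _
      _ ≤ _ := e1
      _ = _ := by ring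
  have hh0 : ENNReal.ofReal h ≠ 0 := by simpa using h0
  have hht : ENNReal.ofReal h ≠ ⊤ := ENNReal.ofReal_ne_top
  calc ‖g s‖ₑ ^ 2 = (ENNReal.ofReal h)⁻¹ * (ENNReal.ofReal h * ‖g s‖ₑ ^ 2) := by
        rw [← mul_assoc, ENNReal.inv_mul_cancel hh0 hht, one_mul]
    _ ≤ (ENNReal.ofReal h)⁻¹ * (2 * (∫⁻ σ in Icc b (b + h), ‖g σ‖ₑ ^ 2) +
          ENNReal.ofReal h * (2 * K ^ 2)) := by gcongr
    _ = 2 * (ENNReal.ofReal h)⁻¹ * (∫⁻ σ in Icc b (b + h), ‖g σ‖ₑ ^ 2) + 2 * K ^ 2 := by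
        rw [mul_add, ← mul_assoc (ENNReal.ofReal h)⁻¹ (ENNReal.ofReal h),
          ENNReal.inv_mul_cancel hh0 hht, one_mul]
        ring
    _ ≤ 2 * (ENNReal.ofReal h)⁻¹ * (∫⁻ σ in Icc b (b + h), ‖g σ‖ₑ ^ 2) +
          2 * (ENNReal.ofReal h * ∫⁻ σ in Icc b (b + h), ‖g' σ‖ₑ ^ 2) := by gcongr
    _ = _ := by rw [mul_assoc 2 (ENNReal.ofReal h)]

end Vale.Agent.P076.R2.H909
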